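import Vale.Agent.P228.Count

open scoped ENNReal Topology
open MeasureTheory Filter Set

namespace Vale.Agent.P228

theorem ediam_image_eq {n : ℕ} (A : Set (Fin n → ℝ)) (f : (Fin n → ℝ) → Fin n → ℝ) :
    Metric.ediam (f '' A) = ⨆ x ∈ A, ⨆ y ∈ A, edist (f x) (f y) := by
  refine le_antisymm ?_ ?_
  · rw [Metric.ediam_image_le_iff]
    intro x hx y hy
    exact (le_biSup (fun y => edist (f x) (f y)) hy).trans
      (le_biSup (fun x => ⨆ y ∈ A, edist (f x) (f y)) hx)
  · refine iSup₂_le fun x hx => iSup₂_le fun y hy => ?_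
    exact Metric.edist_le_ediam_of_mem (mem_image_of_mem f hx) (mem_image_of_mem f hy)

theorem lsc_ediam {n : ℕ} {G : Type*} [TopologicalSpace G] {A : Set (Fin n → ℝ)}
    {S : G → (Fin n → ℝ) → Fin n → ℝ} (hS : ∀ x ∈ A, Continuous fun g => S g x) :
    LowerSemicontinuous fun g => Metric.ediam (S g '' A) := by
  have h : (fun g => Metric.ediam (S g '' A)) =
      fun g => ⨆ x ∈ A, ⨆ y ∈ A, edist (S g x) (S g y) := funext fun g => ediam_image_eq A (S g)
  rw [h]
  refine lowerSemicontinuous_biSup fun x hx => lowerSemicontinuous_biSup fun y hy => ?_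
  exact ((hS x hx).edist (hS y hy)).lowerSemicontinuous

theorem lsc_pow {n : ℕ} {G : Type*} [TopologicalSpace G] {A : Set (Fin n → ℝ)}
    {S : G → (Fin n → ℝ) → Fin n → ℝ} (hS : ∀ x ∈ A, Continuous fun g => S g x) :
    LowerSemicontinuous fun g => Metric.ediam (S g '' A) ^ n :=
  (ENNReal.continuous_pow n).comp_lowerSemicontinuous (lsc_ediam hS) (pow_left_mono n)

theorem lsc_dyadicVar {n : ℕ} {G : Type*} [TopologicalSpace G] {K : Set (Fin n → ℝ)}
    {S : G → (Fin n → ℝ) → Fin n → ℝ} (hS : ∀ x ∈ K, Continuous fun g => S g x) (m : ℕ) :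
    LowerSemicontinuous fun g => dyadicVar K m (S g) :=
  lowerSemicontinuous_tsum fun _ => lsc_pow fun x hx => hS x hx.1

theorem lintegral_pow_le' {G : Type*} [MeasurableSpace G] (μ : Measure G) [IsProbabilityMeasure μ]
    {f : G → ℝ≥0∞} (hf : Measurable f) (n : ℕ) : (∫⁻ g, f g ∂μ) ^ n ≤ ∫⁻ g, f g ^ n ∂μ := by
  rcases Nat.lt_or_ge 1 n with hn | hn
  · have hn' : (1 : ℝ) < n := by exact_mod_cast hn
    have h := ENNReal.lintegral_mul_le_Lp_mul_Lq μ (Real.HolderConjugate.conjExponent hn')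
      hf.aemeasurable (g := fun _ => (1 : ℝ≥0∞)) aemeasurable_const
    have h1 : ∫⁻ g, f g ∂μ ≤ (∫⁻ g, f g ^ (n : ℝ) ∂μ) ^ (1 / (n : ℝ)) := by
      simpa using h
    calc (∫⁻ g, f g ∂μ) ^ n ≤ ((∫⁻ g, f g ^ (n : ℝ) ∂μ) ^ (1 / (n : ℝ))) ^ n := by gcongr
      _ = ∫⁻ g, f g ^ n ∂μ := by
          rw [← ENNReal.rpow_natCast, ← ENNReal.rpow_mul, one_div,
            inv_mul_cancel₀ (by positivity), ENNReal.rpow_one]
          simp only [ENNReal.rpow_natCast]
  · interval_cases n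
    · simp
    · simp

theorem avg_ediam {n : ℕ} {G : Type*} [TopologicalSpace G] [CompactSpace G] [MeasurableSpace G]
    [BorelSpace G] (μ : Measure G) [IsProbabilityMeasure μ] {A : Set (Fin n → ℝ)}
    {S : G → (Fin n → ℝ) → Fin n → ℝ} (hS : ∀ x ∈ A, Continuous fun g => S g x) :
    Metric.ediam ((fun x => ∫ g, S g x ∂μ) '' A) ≤ ∫⁻ g, Metric.ediam (S g '' A) ∂μ := by
  rw [Metric.ediam_image_le_iff]
  intro x hx y hy
  have hi : ∀ z ∈ A, Integrable (fun g => S g z) μ := fun z hz =>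
    (hS z hz).integrable_of_hasCompactSupport (HasCompactSupport.of_compactSpace _)
  rw [edist_eq_enorm_sub, ← integral_sub (hi x hx) (hi y hy)]
  refine (enorm_integral_le_lintegral_enorm _).trans (lintegral_mono fun g => ?_)
  rw [← edist_eq_enorm_sub]
  exact Metric.edist_le_ediam_of_mem (mem_image_of_mem _ hx) (mem_image_of_mem _ hy)

theorem avg_var {n : ℕ} {G : Type*} [TopologicalSpace G] [CompactSpace G] [MeasurableSpace G]
    [BorelSpace G] (μ : Measure G) [IsProbabilityMeasure μ] {K : Set (Fin n → ℝ)}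
    {S : G → (Fin n → ℝ) → Fin n → ℝ} (hS : ∀ x ∈ K, Continuous fun g => S g x) (m : ℕ) :
    dyadicVar K m (fun x => ∫ g, S g x ∂μ) ≤ ∫⁻ g, dyadicVar K m (S g) ∂μ := by
  have hS' : ∀ k, ∀ x ∈ K ∩ cell m k, Continuous fun g => S g x := fun k x hx => hS x hx.1
  unfold dyadicVar
  rw [lintegral_tsum fun k => (lsc_pow (hS' k)).measurable.aemeasurable]
  refine ENNReal.tsum_le_tsum fun k => ?_
  exact (pow_le_pow_left' (avg_ediam μ (hS' k)) n).trans
    (lintegral_pow_le' μ (lsc_ediam (hS' k)).measurable n)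

end Vale.Agent.P228
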