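import Vale.Agent.P228.Avg
import Vale.Agent.Lib.Brouwer

open scoped ENNReal Topology
open MeasureTheory Filter Set Metric

namespace Vale.Agent.P228

/-- a continuous map that moves the points of a ball by at most `ε` covers the smaller ball -/
theorem cover {n : ℕ} {F : (Fin n → ℝ) → Fin n → ℝ} {c : Fin n → ℝ} {R ε : ℝ} (hR : 0 ≤ R)
    (hF : ContinuousOn F (closedBall c R)) (hd : ∀ x ∈ closedBall c R, ‖F x - x‖ ≤ ε)
    {y : Fin n → ℝ} (hy : y ∈ closedBall c (R - ε)) : ∃ x ∈ closedBall c R, F x = y := by
  have hy' : ‖y - c‖ ≤ R - ε := by rwa [← dist_eq_norm]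
  have key : ∀ x ∈ closedBall c R, x - F x + y ∈ closedBall c R := by
    intro x hx
    rw [mem_closedBall, dist_eq_norm]
    have h1 : x - F x + y - c = -(F x - x) + (y - c) := by abel
    rw [h1]
    refine (norm_add_le _ _).trans ?_
    rw [norm_neg]
    linarith [hd x hx]
  obtain ⟨x, hx, he⟩ := BrouwerFP.brouwer (isCompact_closedBall c R) (convex_closedBall c R)
    ⟨c, mem_closedBall_self hR⟩ (f := fun x => x - F x + y)
    ((continuousOn_id.sub hF).add continuousOn_const) key
  refine ⟨x, hx, ?_⟩
  have h2 : x - F x + y = x := he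
  have h4 : x - F x + y - x + F x = x - x + F x := congrArg (fun z => z - x + F x) h2
  have h5 : x - F x + y - x + F x = y := by abel
  rw [h5, sub_self, zero_add] at h4
  exact h4.symm

/-- averaging: the mean `n`-variation tends to infinity -/
theorem core {n : ℕ} {G : Type*} [AddGroup G] [TopologicalSpace G] [CompactSpace G]
    [MeasurableSpace G] [BorelSpace G] [ContinuousAdd G] (μ : Measure G) [IsProbabilityMeasure μ]
    [μ.IsAddRightInvariant] {M : Type*} [TopologicalSpace M] {S U : G → M → M}
    (hSU : ∀ b b' x, S (b + b') x = S b (U b' x))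
    (hS : Continuous fun q : G × M => S q.1 q.2)
    (e : OpenPartialHomeomorph M (Fin n → ℝ)) {c : Fin n → ℝ} {R ε : ℝ} (hε0 : 0 ≤ ε)
    (hε : 2 * ε < R) (hsub : closedBall c R ⊆ e.target)
    (hSs : ∀ b, ∀ x ∈ closedBall c R, S b (e.symm x) ∈ e.source)
    (hUs : ∀ b, ∀ x ∈ closedBall c R, U b (e.symm x) ∈ e.source)
    (hSd : ∀ b, ∀ x ∈ closedBall c R, ‖e (S b (e.symm x)) - x‖ ≤ ε)
    (hUd : ∀ b, ∀ x ∈ closedBall c R, ‖e (U b (e.symm x)) - x‖ ≤ ε)
    (hinf : ∀ x ∈ closedBall c R, (range fun b => U b (e.symm x)).Infinite) :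
    Tendsto (fun m => ∫⁻ b, dyadicVar (closedBall c R) m (fun x => e (S b (e.symm x))) ∂μ)
      atTop (𝓝 ⊤) := by
  set K := closedBall c R with hKdef
  have hR : 0 < R := by linarith
  -- joint continuity
  have hj : Continuous fun q : K × G => e (S q.2 (e.symm (q.1 : Fin n → ℝ))) := by
    have h1 : Continuous fun x : K => e.symm (x : Fin n → ℝ) :=
      continuousOn_iff_continuous_domRestrict.1 (e.continuousOn_symm.mono hsub)
    have h2 : Continuous fun q : K × G => S q.2 (e.symm (q.1 : Fin n → ℝ)) :=
      hS.comp (continuous_snd.prodMk (h1.comp continuous_fst))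
    exact e.continuousOn.comp_continuous h2 fun q => hSs q.2 q.1 q.1.2
  have hc : ∀ x ∈ K, Continuous fun b => e (S b (e.symm x)) := fun x hx =>
    hj.comp (continuous_const.prodMk continuous_id : Continuous fun b : G => ((⟨x, hx⟩ : K), b))
  have hi : ∀ x ∈ K, Integrable (fun b => e (S b (e.symm x))) μ := fun x hx =>
    (hc x hx).integrable_of_hasCompactSupport (HasCompactSupport.of_compactSpace _)
  set F : (Fin n → ℝ) → Fin n → ℝ := fun x => ∫ b, e (S b (e.symm x)) ∂μ with hFdef
  have hF : ContinuousOn F K := by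
    rw [continuousOn_iff_continuous_domRestrict]
    have : CompactSpace K := isCompact_iff_compactSpace.1 (isCompact_closedBall c R)
    have h3 := continuous_parametric_integral_of_continuous (μ := μ)
      (f := fun (x : K) (b : G) => e (S b (e.symm (x : Fin n → ℝ)))) hj (s := univ) isCompact_univ
    simp only [Measure.restrict_univ] at h3
    exact h3
  have hFd : ∀ x ∈ K, ‖F x - x‖ ≤ ε := by
    intro x hx
    have h4 : F x - x = ∫ b, (e (S b (e.symm x)) - x) ∂μ := by
      rw [integral_sub (hi x hx) (integrable_const x), integral_const, probReal_univ, one_smul]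
    rw [h4]
    have h5 := norm_integral_le_of_norm_le_const (μ := μ) (f := fun b => e (S b (e.symm x)) - x)
      (C := ε) (Eventually.of_forall fun b => hSd b x hx)
    rwa [probReal_univ, mul_one] at h5
  have hFinv : ∀ x ∈ K, ∀ b', F (e (U b' (e.symm x))) = F x := by
    intro x hx b'
    have h6 : e.symm (e (U b' (e.symm x))) = U b' (e.symm x) := e.left_inv (hUs b' x hx)
    have h7 : F (e (U b' (e.symm x))) = ∫ b, e (S (b + b') (e.symm x)) ∂μ := by
      simp only [hFdef, h6, hSU]
    rw [h7]
    exact integral_add_right_eq_self (fun b => e (S b (e.symm x))) b'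
  have hpre : ∀ y ∈ closedBall c (R - 2 * ε), (K ∩ F ⁻¹' {y}).Infinite := by
    intro y hy
    have hy1 : ‖y - c‖ ≤ R - 2 * ε := by rwa [← dist_eq_norm]
    obtain ⟨x, hx, hxy⟩ := cover (y := y) hR.le hF hFd
      (closedBall_subset_closedBall (by linarith) hy)
    have hxy' : ‖x - y‖ ≤ ε := by
      rw [← hxy, norm_sub_rev]
      exact hFd x hx
    have himg : (e '' (range fun b => U b (e.symm x))).Infinite := by
      refine (hinf x hx).image (e.injOn.mono ?_)
      rintro _ ⟨b, rfl⟩
      exact hUs b x hx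
    refine himg.mono ?_
    rintro _ ⟨_, ⟨b, rfl⟩, rfl⟩
    refine ⟨?_, ?_⟩
    · rw [hKdef, mem_closedBall, dist_eq_norm]
      have h9 : e (U b (e.symm x)) - c = (e (U b (e.symm x)) - x) + ((x - y) + (y - c)) := by abel
      rw [h9]
      refine (norm_add_le _ _).trans ?_
      have h10 := norm_add_le (x - y) (y - c)
      linarith [hUd b x hx]
    · exact (hFinv x hx b).trans hxy
  have h8 : Tendsto (fun m => dyadicVar K m F) atTop (𝓝 ⊤) :=
    count (isCompact_closedBall c R) hF (B := closedBall c (R - 2 * ε)) measurableSet_closedBall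
      ((measure_closedBall_pos volume c (by linarith)).ne') hpre
  exact tendsto_nhds_top_mono h8 (Eventually.of_forall fun m => avg_var μ hc m)

end Vale.Agent.P228
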