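import Vale.Agent.P228.Defs

open scoped ENNReal Topology
open MeasureTheory Filter Set

namespace Vale.Agent.P228

theorem isClosed_cell {n : ℕ} (m : ℕ) (k : Fin n → ℤ) : IsClosed (cell m k : Set (Fin n → ℝ)) := by
  have : (cell m k : Set (Fin n → ℝ)) =
      ⋂ i, ({x | (k i : ℝ) ≤ 2 ^ m * x i} ∩ {x | (2 : ℝ) ^ m * x i ≤ (k i : ℝ) + 1}) := by
    ext x
    rw [mem_iInter]
    exact Iff.rfl
  rw [this]
  refine isClosed_iInter fun i => IsClosed.inter ?_ ?_
  · exact isClosed_le continuous_const (continuous_const.mul (continuous_apply i))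
  · exact isClosed_le (continuous_const.mul (continuous_apply i)) continuous_const

/-- the cell of a point -/
noncomputable def idx {n : ℕ} (m : ℕ) (x : Fin n → ℝ) : Fin n → ℤ := fun i => ⌊(2 : ℝ) ^ m * x i⌋

theorem mem_cell_idx {n : ℕ} (m : ℕ) (x : Fin n → ℝ) : x ∈ cell m (idx m x) := by
  intro i
  exact ⟨Int.floor_le _, (Int.lt_floor_add_one _).le⟩

theorem idx_ne {n : ℕ} {x y : Fin n → ℝ} (h : x ≠ y) : ∀ᶠ m : ℕ in atTop, idx m x ≠ idx m y := by
  obtain ⟨i, hi⟩ := Function.ne_iff.1 h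
  have h0 : 0 < |x i - y i| := abs_pos.2 (sub_ne_zero.2 hi)
  have h1 : Tendsto (fun m : ℕ => (2 : ℝ) ^ m * |x i - y i|) atTop atTop :=
    (tendsto_pow_atTop_atTop_of_one_lt (by norm_num)).atTop_mul_const h0
  filter_upwards [h1.eventually_ge_atTop 1] with m hm he
  have h2 : ⌊(2 : ℝ) ^ m * x i⌋ = ⌊(2 : ℝ) ^ m * y i⌋ := congrFun he i
  have h3 := Int.abs_sub_lt_one_of_floor_eq_floor h2
  rw [← mul_sub, abs_mul, abs_of_pos (by positivity : (0 : ℝ) < 2 ^ m)] at h3
  linarith

theorem idx_injOn {n : ℕ} (S : Finset (Fin n → ℝ)) :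
    ∀ᶠ m : ℕ in atTop, Set.InjOn (idx m) (S : Set (Fin n → ℝ)) := by
  have h : ∀ᶠ m : ℕ in atTop, ∀ x ∈ S, ∀ y ∈ S, x ≠ y → idx m x ≠ idx m y := by
    rw [Filter.eventually_all_finset]
    intro x _
    rw [Filter.eventually_all_finset]
    intro y _
    by_cases hxy : x = y
    · exact Eventually.of_forall fun m h => absurd hxy h
    · filter_upwards [idx_ne hxy] with m hm _ using hm
  filter_upwards [h] with m hm x hx y hy he
  by_contra hne
  exact hm x hx y hy hne he

/-- number of cells of scale `m` whose image contains `y` -/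
noncomputable def cnt {n : ℕ} (K : Set (Fin n → ℝ)) (F : (Fin n → ℝ) → Fin n → ℝ) (m : ℕ)
    (y : Fin n → ℝ) : ℝ≥0∞ :=
  ∑' k : Fin n → ℤ, (F '' (K ∩ cell m k)).indicator (fun _ => (1 : ℝ≥0∞)) y

theorem cnt_tendsto {n : ℕ} {K : Set (Fin n → ℝ)} {F : (Fin n → ℝ) → Fin n → ℝ} {y : Fin n → ℝ}
    (h : (K ∩ F ⁻¹' {y}).Infinite) : Tendsto (fun m => cnt K F m y) atTop (𝓝 ⊤) := by
  rw [ENNReal.tendsto_nhds_top_iff_nat]
  intro N
  obtain ⟨S, hS, hcard⟩ := h.exists_subset_card_eq (N + 1)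
  filter_upwards [idx_injOn S] with m hm
  have h1 : ∀ k ∈ S.image (idx m), (F '' (K ∩ cell m k)).indicator (fun _ => (1 : ℝ≥0∞)) y = 1 := by
    intro k hk
    obtain ⟨x, hx, rfl⟩ := Finset.mem_image.1 hk
    have hx' := hS hx
    rw [indicator_of_mem]
    exact ⟨x, ⟨hx'.1, mem_cell_idx m x⟩, hx'.2⟩
  have h2 : ((N + 1 : ℕ) : ℝ≥0∞) ≤ cnt K F m y := by
    calc ((N + 1 : ℕ) : ℝ≥0∞) = ∑ k ∈ S.image (idx m),
          (F '' (K ∩ cell m k)).indicator (fun _ => (1 : ℝ≥0∞)) y := by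
          rw [Finset.sum_congr rfl h1, Finset.sum_const, Finset.card_image_of_injOn hm, hcard,
            nsmul_eq_mul, mul_one]
      _ ≤ _ := ENNReal.sum_le_tsum _
  refine lt_of_lt_of_le ?_ h2
  exact_mod_cast Nat.lt_succ_self N

/-- area estimate: if each point of a set of positive measure has infinitely many preimages, then the
dyadic variation tends to infinity -/
theorem count {n : ℕ} {K : Set (Fin n → ℝ)} (hK : IsCompact K) {F : (Fin n → ℝ) → Fin n → ℝ}
    (hF : ContinuousOn F K) {B : Set (Fin n → ℝ)} (hB : MeasurableSet B) (hB0 : volume B ≠ 0)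
    (hinf : ∀ y ∈ B, (K ∩ F ⁻¹' {y}).Infinite) :
    Tendsto (fun m => dyadicVar K m F) atTop (𝓝 ⊤) := by
  have hmeas : ∀ m k, MeasurableSet (F '' (K ∩ cell m k)) := fun m k =>
    ((hK.inter_right (isClosed_cell m k)).image_of_continuousOn
      (hF.mono inter_subset_left)).isClosed.measurableSet
  have hcm : ∀ m, Measurable (cnt K F m) := fun m =>
    Measurable.tsum fun k => measurable_const.indicator (hmeas m k)
  have h1 : ∀ m, ∫⁻ y in B, cnt K F m y ≤ dyadicVar K m F := by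
    intro m
    calc ∫⁻ y in B, cnt K F m y ≤ ∫⁻ y, cnt K F m y := setLIntegral_le_lintegral _ _
      _ = ∑' k : Fin n → ℤ, ∫⁻ y, (F '' (K ∩ cell m k)).indicator (fun _ => (1 : ℝ≥0∞)) y := by
          unfold cnt
          rw [lintegral_tsum]
          exact fun k => (measurable_const.indicator (hmeas m k)).aemeasurable
      _ = ∑' k : Fin n → ℤ, volume (F '' (K ∩ cell m k)) := by
          refine tsum_congr fun k => ?_
          rw [lintegral_indicator (hmeas m k), setLIntegral_one]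
      _ ≤ dyadicVar K m F := by
          refine ENNReal.tsum_le_tsum fun k => ?_
          have := Real.volume_pi_le_diam_pow (F '' (K ∩ cell m k))
          rwa [Fintype.card_fin] at this
  have h2 : (⊤ : ℝ≥0∞) ≤ liminf (fun m => ∫⁻ y in B, cnt K F m y) atTop := by
    refine le_trans ?_ (lintegral_liminf_le hcm)
    have h3 : ∫⁻ y in B, liminf (fun m => cnt K F m y) atTop = ∫⁻ _ in B, ⊤ := by
      refine setLIntegral_congr_fun hB fun y hy => ?_
      exact (cnt_tendsto (hinf y hy)).liminf_eq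
    rw [h3, setLIntegral_const, ENNReal.top_mul hB0]
  have h4 : (⊤ : ℝ≥0∞) ≤ liminf (fun m => dyadicVar K m F) atTop :=
    h2.trans (liminf_le_liminf (Eventually.of_forall h1))
  exact tendsto_of_le_liminf_of_limsup_le h4 le_top

end Vale.Agent.P228
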