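import Mathlib

/-!
# P228: free actions of the p-adic integers have infinite n-variation (helper14)

`dyadicVar K m f` is the sum over the closed dyadic cubes `Q` of side `2^(-m)` of
`diam (f (Q ∩ K)) ^ n`.

THEOREM.  Let the additive group `ℤ_[p]` act freely and continuously on an `n`-manifold.  In every
coordinate ball a generic element of every small subgroup `p^N ℤ_[p]` has infinite `n`-variation.

Proof.  Otherwise (Baire) some coset `a₀ + p^N' ℤ_[p]` has `n`-variation at most `C` at all scales.
`F x = ∫ (a₀ + p^N' b) x db` is a continuous map close to the identity, its `n`-variation is at most `C`,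
and it is constant on the orbits of `p^N'`, which are infinite.  By Brouwer its image contains a ball,
so each point of this ball has infinitely many preimages, which is impossible (area estimate).
-/

open scoped ENNReal

namespace Vale.Agent.P228

/-- closed dyadic cube of side `2^(-m)` -/
def cell {n : ℕ} (m : ℕ) (k : Fin n → ℤ) : Set (Fin n → ℝ) :=
  {x | ∀ i, (k i : ℝ) ≤ 2 ^ m * x i ∧ 2 ^ m * x i ≤ k i + 1}

/-- dyadic `n`-variation of `f` on `K` at scale `2^(-m)` -/
noncomputable def dyadicVar {n : ℕ} (K : Set (Fin n → ℝ)) (m : ℕ)
    (f : (Fin n → ℝ) → Fin n → ℝ) : ℝ≥0∞ :=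
  ∑' k : Fin n → ℤ, Metric.ediam (f '' (K ∩ cell m k)) ^ n

end Vale.Agent.P228
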