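import Vale.Agent.P228.Core

open scoped ENNReal Topology
open MeasureTheory Filter Set Metric

namespace Vale.Agent.P228

theorem norm_p_le {p : ℕ} [Fact p.Prime] (N : ℕ) (a : ℤ_[p]) :
    ‖(p : ℤ_[p]) ^ N * a‖ ≤ ((p : ℝ)⁻¹) ^ N := by
  rw [norm_mul, norm_pow, PadicInt.norm_p]
  exact mul_le_of_le_one_right (by positivity) (PadicInt.norm_le_one a)

theorem p_small {p : ℕ} [Fact p.Prime] {P : ℤ_[p] → Prop} (h : ∀ᶠ a in 𝓝 (0 : ℤ_[p]), P a) :
    ∃ N₀ : ℕ, ∀ N ≥ N₀, ∀ a, P ((p : ℤ_[p]) ^ N * a) := by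
  obtain ⟨δ, hδ, hP⟩ := Metric.eventually_nhds_iff.1 h
  have hp : (1 : ℝ) < p := by exact_mod_cast (Fact.out : p.Prime).one_lt
  have h1 : ∀ᶠ N : ℕ in atTop, ((p : ℝ)⁻¹) ^ N < δ :=
    (tendsto_pow_atTop_nhds_zero_of_lt_one (by positivity) (inv_lt_one_of_one_lt₀ hp)).eventually_lt_const hδ
  obtain ⟨N₀, hN⟩ := eventually_atTop.1 h1
  refine ⟨N₀, fun N hNN a => hP ?_⟩
  rw [dist_zero_right]
  exact (norm_p_le N a).trans_lt (hN N hNN)

/-- small subgroups move the points of a coordinate ball by a small amount -/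
theorem displacement {p : ℕ} [Fact p.Prime] {n : ℕ} {M : Type*} [TopologicalSpace M]
    [AddAction ℤ_[p] M] [ContinuousVAdd ℤ_[p] M] (e : OpenPartialHomeomorph M (Fin n → ℝ))
    {c : Fin n → ℝ} {R : ℝ} (hR : 0 < R) (hsub : closedBall c R ⊆ e.target) :
    ∃ N₀ : ℕ, ∀ N ≥ N₀, ∀ a : ℤ_[p], ∀ x ∈ closedBall c R,
      ((p : ℤ_[p]) ^ N * a) +ᵥ e.symm x ∈ e.source ∧
      ‖e (((p : ℤ_[p]) ^ N * a) +ᵥ e.symm x) - x‖ ≤ R / 8 := by
  refine p_small (P := fun a => ∀ x ∈ closedBall c R, a +ᵥ e.symm x ∈ e.source ∧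
      ‖e (a +ᵥ e.symm x) - x‖ ≤ R / 8) ?_
  refine (isCompact_closedBall c R).eventually_forall_of_forall_eventually fun y hy => ?_
  have hyt : y ∈ e.target := hsub hy
  have h1 : ContinuousAt (fun q : ℤ_[p] × (Fin n → ℝ) => q.1 +ᵥ e.symm q.2) (0, y) := by
    refine ContinuousAt.vadd continuousAt_fst ?_
    exact ContinuousAt.comp (f := Prod.snd) (g := e.symm)
      (e.continuousAt_symm hyt) continuousAt_snd
  have h0 : (0 : ℤ_[p]) +ᵥ e.symm y = e.symm y := zero_vadd _ _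
  have hys : (0 : ℤ_[p]) +ᵥ e.symm y ∈ e.source := by
    rw [h0]
    exact e.map_target hyt
  have h2 : ∀ᶠ q : ℤ_[p] × (Fin n → ℝ) in 𝓝 (0, y), q.1 +ᵥ e.symm q.2 ∈ e.source :=
    h1.eventually_mem (e.open_source.mem_nhds hys)
  have h3 : ContinuousAt (fun q : ℤ_[p] × (Fin n → ℝ) => e (q.1 +ᵥ e.symm q.2) - q.2) (0, y) := by
    refine ContinuousAt.sub ?_ continuousAt_snd
    exact ContinuousAt.comp (f := fun q : ℤ_[p] × (Fin n → ℝ) => q.1 +ᵥ e.symm q.2) (g := e)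
      (e.continuousAt hys) h1
  have h4 : ∀ᶠ q : ℤ_[p] × (Fin n → ℝ) in 𝓝 (0, y), ‖e (q.1 +ᵥ e.symm q.2) - q.2‖ < R / 8 := by
    have h5 := h3.norm
    have h6 : ‖e ((0 : ℤ_[p]) +ᵥ e.symm y) - y‖ < R / 8 := by
      rw [h0, e.right_inv hyt, sub_self, norm_zero]
      positivity
    exact h5.eventually_lt continuousAt_const h6
  filter_upwards [h2, h4] with q hq1 hq2 using ⟨hq1, hq2.le⟩

theorem main {p : ℕ} [Fact p.Prime] {n : ℕ} {M : Type*} [TopologicalSpace M]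
    [AddAction ℤ_[p] M] [ContinuousVAdd ℤ_[p] M] (e : OpenPartialHomeomorph M (Fin n → ℝ))
    (hfree : ∀ x ∈ e.source, ∀ a : ℤ_[p], a +ᵥ x = x → a = 0)
    {c : Fin n → ℝ} {R : ℝ} (hR : 0 < R) (hsub : closedBall c R ⊆ e.target) :
    ∃ N₀ : ℕ, ∀ N ≥ N₀,
      (∀ a : ℤ_[p], ∀ x ∈ closedBall c R, ((p : ℤ_[p]) ^ N * a) +ᵥ e.symm x ∈ e.source) ∧
      {a : ℤ_[p] | ⨆ m, dyadicVar (closedBall c R) m
        (fun x => e (((p : ℤ_[p]) ^ N * a) +ᵥ e.symm x)) = ⊤} ∈ residual ℤ_[p] := by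
  obtain ⟨N₀, hN₀⟩ := displacement (p := p) e hR hsub
  refine ⟨N₀, fun N hN => ⟨fun a x hx => (hN₀ N hN a x hx).1, ?_⟩⟩
  set K := closedBall c R with hK
  set f : ℤ_[p] → (Fin n → ℝ) → Fin n → ℝ :=
    fun a x => e (((p : ℤ_[p]) ^ N * a) +ᵥ e.symm x) with hf
  have hfc : ∀ x ∈ K, Continuous fun a => f a x := by
    intro x hx
    have h1 : Continuous fun a : ℤ_[p] => ((p : ℤ_[p]) ^ N * a) +ᵥ e.symm x :=
      (continuous_const.mul continuous_id).vadd continuous_const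
    exact e.continuousOn.comp_continuous h1 fun a => (hN₀ N hN a x hx).1
  -- the sets of elements of bounded variation are closed with empty interior
  have hclosed : ∀ C : ℕ, IsClosed {a : ℤ_[p] | ∀ m, dyadicVar K m (f a) ≤ C} := by
    intro C
    have : {a : ℤ_[p] | ∀ m, dyadicVar K m (f a) ≤ C} =
        ⋂ m, (fun a => dyadicVar K m (f a)) ⁻¹' Iic (C : ℝ≥0∞) := by
      ext a
      rw [mem_iInter]
      exact Iff.rfl
    rw [this]
    exact isClosed_iInter fun m => (lsc_dyadicVar hfc m).isClosed_preimage _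
  have hempty : ∀ C : ℕ, interior {a : ℤ_[p] | ∀ m, dyadicVar K m (f a) ≤ C} = ∅ := by
    intro C
    by_contra hne
    obtain ⟨a₀, ha₀⟩ := nonempty_iff_ne_empty.2 hne
    have h2 : ∀ᶠ b in 𝓝 (0 : ℤ_[p]), ∀ m, dyadicVar K m (f (a₀ + b)) ≤ C := by
      have h3 : Tendsto (fun b : ℤ_[p] => a₀ + b) (𝓝 0) (𝓝 a₀) := by
        have : Continuous fun b : ℤ_[p] => a₀ + b := continuous_const.add continuous_id
        have h4 := this.tendsto 0
        rwa [add_zero] at h4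
      exact h3.eventually (mem_interior_iff_mem_nhds.1 ha₀)
    obtain ⟨N', hN'⟩ := p_small h2
    have hN'' := hN' N' le_rfl
    let _ : MeasurableSpace ℤ_[p] := borel ℤ_[p]
    have _ : BorelSpace ℤ_[p] := ⟨rfl⟩
    let K₀ : TopologicalSpace.PositiveCompacts ℤ_[p] := ⊤
    let μ : Measure ℤ_[p] := Measure.addHaarMeasure K₀
    have hμ1 : μ univ = 1 := by
      have h5 := Measure.addHaarMeasure_self (K₀ := K₀)
      exact h5
    have : IsProbabilityMeasure μ := ⟨hμ1⟩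
    have hp0 : (p : ℤ_[p]) ≠ 0 := by
      exact_mod_cast (Fact.out : p.Prime).ne_zero
    have h6 := core μ (S := fun b x => ((p : ℤ_[p]) ^ N * (a₀ + (p : ℤ_[p]) ^ N' * b)) +ᵥ x)
      (U := fun b x => ((p : ℤ_[p]) ^ N * ((p : ℤ_[p]) ^ N' * b)) +ᵥ x) (M := M)
      (fun b b' x => by rw [vadd_vadd]; congr 1; ring)
      (by
        refine Continuous.vadd ?_ continuous_snd
        exact continuous_const.mul (continuous_const.add (continuous_const.mul continuous_fst)))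
      e (c := c) (R := R) (ε := R / 8) (by positivity) (by linarith) hsub
      (fun b x hx => (hN₀ N hN _ x hx).1) (fun b x hx => (hN₀ N hN _ x hx).1)
      (fun b x hx => (hN₀ N hN _ x hx).2) (fun b x hx => (hN₀ N hN _ x hx).2)
      (fun x hx => by
        refine infinite_range_of_injective fun b b' hbb => ?_
        have h7 : e.symm x ∈ e.source := e.map_target (hsub hx)
        have h8 : ((p : ℤ_[p]) ^ N * ((p : ℤ_[p]) ^ N' * (b - b'))) +ᵥ e.symm x = e.symm x := by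
          have h9 : (p : ℤ_[p]) ^ N * ((p : ℤ_[p]) ^ N' * (b - b')) =
              -((p : ℤ_[p]) ^ N * ((p : ℤ_[p]) ^ N' * b')) +
                (p : ℤ_[p]) ^ N * ((p : ℤ_[p]) ^ N' * b) := by ring
          rw [h9, add_vadd]
          have hbb' : ((p : ℤ_[p]) ^ N * ((p : ℤ_[p]) ^ N' * b)) +ᵥ e.symm x =
              ((p : ℤ_[p]) ^ N * ((p : ℤ_[p]) ^ N' * b')) +ᵥ e.symm x := hbb
          rw [hbb', neg_vadd_vadd]
        have h10 := hfree _ h7 _ h8
        have h11 : b - b' = 0 := by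
          rcases mul_eq_zero.1 h10 with h | h
          · exact absurd h (pow_ne_zero _ hp0)
          · rcases mul_eq_zero.1 h with h | h
            · exact absurd h (pow_ne_zero _ hp0)
            · exact h
        exact sub_eq_zero.1 h11)
    have h12 : ∀ m, ∫⁻ b, dyadicVar K m (f (a₀ + (p : ℤ_[p]) ^ N' * b)) ∂μ ≤ C := by
      intro m
      refine (lintegral_mono fun b => hN'' b m).trans ?_
      rw [lintegral_const, measure_univ, mul_one]
    have h13 : (⊤ : ℝ≥0∞) ≤ C := le_of_tendsto' h6 h12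
    exact absurd h13 (not_le.2 (ENNReal.natCast_lt_top C))
  have hres : ⋂ C : ℕ, {a : ℤ_[p] | ∀ m, dyadicVar K m (f a) ≤ C}ᶜ ∈ residual ℤ_[p] := by
    rw [countable_iInter_mem]
    intro C
    exact residual_of_dense_open (hclosed C).isOpen_compl (interior_eq_empty_iff_dense_compl.1 (hempty C))
  refine mem_of_superset hres fun a ha => ?_
  rw [mem_iInter] at ha
  show ⨆ m, dyadicVar K m (f a) = ⊤
  by_contra hne
  obtain ⟨C, hC⟩ := ENNReal.exists_nat_gt hne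
  exact ha C fun m => (le_iSup (fun m => dyadicVar K m (f a)) m).trans hC.le

end Vale.Agent.P228
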